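import Vale.Agent.P340.Std

namespace Vale.Agent.P340

open Tm Relation

universe v
variable {S : Type v}

def Prot (k k' : ℕ) (σ : ℕ → Tm S) : Prop := ∀ j, k ≤ j → ∃ j', k' ≤ j' ∧ σ j = var j'

theorem Prot.ups {k k' : ℕ} {σ : ℕ → Tm S} (h : Prot k k' σ) : Prot (k + 1) (k' + 1) (ups σ) := by
  intro j hj
  obtain ⟨j, rfl⟩ : ∃ i, j = i + 1 := ⟨j - 1, by omega⟩
  obtain ⟨j', a, b⟩ := h j (by omega)
  exact ⟨j' + 1, by omega, by rw [P340.ups, b]; rfl⟩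

/-- `t` retains `X` -/
def R (k : ℕ) (t X : Tm S) : Prop :=
  ∀ σ n, Prot k 0 σ → W n (sub σ t) → W n (sub σ X)

theorem R.refl (k : ℕ) (t : Tm S) : R k t t := fun _ _ _ h => h

theorem R.trans {k : ℕ} {a b c : Tm S} (h1 : R k a b) (h2 : R k b c) : R k a c :=
  fun σ n p h => h2 σ n p (h1 σ n p h)

theorem R.sub {k k' : ℕ} {a b : Tm S} {σ : ℕ → Tm S} (h : R k a b) (p : Prot k k' σ) :
    R k' (sub σ a) (sub σ b) := by
  intro τ n q w
  rw [sub_sub] at w ⊢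
  refine h _ n (fun j hj => ?_) w
  obtain ⟨j', a, b⟩ := p j hj
  obtain ⟨j'', c, d⟩ := q j' a
  exact ⟨j'', c, by rw [b]; exact d⟩

theorem R.sh {k : ℕ} {a b : Tm S} (h : R k a b) : R (k + 1) (sh a) (sh b) := by
  rw [P340.sh, P340.sh, ren_eq, ren_eq]
  exact h.sub fun j hj => ⟨j + 1, by omega, rfl⟩

theorem R.w {k n : ℕ} {a b : Tm S} (h : R k a b) (w : W n a) : W n b := by
  have := h var n (fun j _ => ⟨j, Nat.zero_le _, rfl⟩)
  rw [sub_var, sub_var] at this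
  exact this w

def u1 (ρ : ℕ → ℕ) (i : ℕ) : ℕ := ρ i + 1

def u2 (ρ : ℕ → ℕ) : ℕ → ℕ
  | 0 => 0
  | n + 1 => ρ n + 2

inductive D : ℕ → (ℕ → ℕ) → Tm S → Tm S → Tm S → Prop
  | var {k ρ t t'} (i : ℕ) : R k t' t → D k ρ t (var i) (app (var (ρ i)) t')
  | adm {k ρ t t' N Q} (Y : Tm S) : D (k + 1) (u1 ρ) (var 0) N Q → R k t' t →
      D k ρ t N (app (lam Y Q) t')
  | sort {k ρ t X} (s : S) (Y : Tm S) : R k X t → D k ρ t (sort s) (pi X Y)
  | app {k ρ t M P N Q} (X Y : Tm S) : D k ρ t M P → D (k + 1) (u1 ρ) (var 0) N Q →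
      D k ρ t (app M N) (app (app P X) (lam Y Q))
  | lam {k ρ t tA A PA t' M P} (X Y : Tm S) : D k ρ tA A PA → D (k + 2) (u2 ρ) t' M P →
      R (k + 2) t' (sh (sh t)) → R (k + 2) t' (var 0) → R (k + 2) t' (sh (sh PA)) →
      D k ρ t (lam A M) (lam X (lam Y P))
  | pi {k ρ t tA A PA t' M P} (X Y : Tm S) : D k ρ tA A PA → D (k + 2) (u2 ρ) t' M P →
      R (k + 2) t' (sh (sh t)) → R (k + 2) t' (var 0) → R (k + 2) t' (sh (sh PA)) →
      D k ρ t (pi A M) (pi X (pi Y P))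

theorem D.weak {k ρ} {t M P : Tm S} (h : D k ρ t M P) : ∀ {t0}, R k t t0 → D k ρ t0 M P := by
  induction h with
  | var i a => exact fun r => .var i (a.trans r)
  | adm Y a b => exact fun r => .adm Y a (b.trans r)
  | sort s Y a => exact fun r => .sort s Y (a.trans r)
  | app X Y _ b ih => exact fun r => .app X Y (ih r) b
  | lam X Y a b c d e => exact fun r => .lam X Y a b (c.trans r.sh.sh) d e
  | pi X Y a b c d e => exact fun r => .pi X Y a b (c.trans r.sh.sh) d e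

def H (k : ℕ) (ρ : ℕ → ℕ) (N Q : Tm S) : Prop :=
  (∃ j, N = var j ∧ Q = var (ρ j)) ∨ ∃ Y Q', Q = lam Y Q' ∧ D (k + 1) (u1 ρ) (var 0) N Q'

theorem D.gen (G : ℕ → (ℕ → ℕ) → Tm S → Tm S → Prop)
    (g0 : ∀ k ρ N Q, G k ρ N Q → H k ρ N Q) (g1 : ∀ k ρ N Q, G k ρ N Q → G (k + 1) (u1 ρ) N (sh Q))
    (g2 : ∀ k ρ N Q, G k ρ N Q → G (k + 2) (u2 ρ) (sh N) (sh (sh Q)))
    (g3 : ∀ k ρ, G (k + 2) (u2 ρ) (.var 0) (.var 0))
    {k ρ} {t M P : Tm S} (h : D k ρ t M P) : ∀ k' ρ' (τ σ : ℕ → Tm S), Prot k k' σ →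
      (∀ i, G k' ρ' (τ i) (σ (ρ i))) → D k' ρ' (sub σ t) (sub τ M) (sub σ P) := by
  have up2 : ∀ {ρ : ℕ → ℕ} {k' ρ'} {τ σ : ℕ → Tm S}, (∀ i, G k' ρ' (τ i) (σ (ρ i))) →
      ∀ i, G (k' + 2) (u2 ρ') (ups τ i) (ups (ups σ) (u2 ρ i)) := fun h i => by
    cases i with
    | zero => exact g3 _ _
    | succ i => exact g2 _ _ _ _ (h i)
  induction h with
  | var i a =>
    intro k' ρ' τ σ p g
    rcases g0 _ _ _ _ (g i) with ⟨j, e1, e2⟩ | ⟨Y, Q, e1, e2⟩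
    · simp only [sub, e1, e2]; exact .var j (a.sub p)
    · simp only [sub, e1]; exact .adm Y e2 (a.sub p)
  | adm Y _ b ih =>
    intro k' ρ' τ σ p g
    exact .adm _ (ih _ _ τ _ p.ups fun i => g1 _ _ _ _ (g i)) (b.sub p)
  | sort s Y a => exact fun k' ρ' τ σ p g => .sort s _ (a.sub p)
  | app X Y _ _ i1 i2 =>
    intro k' ρ' τ σ p g
    exact .app _ _ (i1 _ _ τ _ p g) (i2 _ _ τ _ p.ups fun i => g1 _ _ _ _ (g i))
  | lam X Y _ _ c d e i1 i2 =>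
    intro k' ρ' τ σ p g
    have c' := c.sub p.ups.ups
    have e' := e.sub p.ups.ups
    rw [sub_sh, sub_sh] at c' e'
    exact .lam _ _ (i1 _ _ τ _ p g) (i2 _ _ _ _ p.ups.ups (up2 g)) c' (d.sub p.ups.ups) e'
  | pi X Y _ _ c d e i1 i2 =>
    intro k' ρ' τ σ p g
    have c' := c.sub p.ups.ups
    have e' := e.sub p.ups.ups
    rw [sub_sh, sub_sh] at c' e'
    exact .pi _ _ (i1 _ _ τ _ p g) (i2 _ _ _ _ p.ups.ups (up2 g)) c' (d.sub p.ups.ups) e'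

theorem D.ren {k ρ} {t M P : Tm S} (h : D k ρ t M P) (k' : ℕ) (ρ' ζ ξ : ℕ → ℕ)
    (p : ∀ j, k ≤ j → k' ≤ ξ j) (g : ∀ i, ξ (ρ i) = ρ' (ζ i)) :
    D k' ρ' (ren ξ t) (ren ζ M) (ren ξ P) := by
  rw [ren_eq, ren_eq, ren_eq]
  refine D.gen (fun _ ρ N Q => ∃ j, N = .var j ∧ Q = .var (ρ j)) (fun _ _ _ _ => .inl) ?_ ?_
    (fun _ _ => ⟨0, rfl, rfl⟩) h _ _ _ _ (fun j hj => ⟨_, p j hj, rfl⟩) fun i => ⟨_, rfl, by rw [g]⟩
  · rintro _ _ _ _ ⟨j, rfl, rfl⟩; exact ⟨j, rfl, rfl⟩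
  · rintro _ _ _ _ ⟨j, rfl, rfl⟩; exact ⟨j + 1, rfl, rfl⟩

theorem ren_id (M : Tm S) : ren (fun i => i) M = M := by rw [ren_eq]; exact sub_var M

theorem D.sub {k ρ} {t M P : Tm S} (h : D k ρ t M P) (k' : ℕ) (ρ' : ℕ → ℕ) (τ σ : ℕ → Tm S)
    (p : Prot k k' σ) (g : ∀ i, H k' ρ' (τ i) (σ (ρ i))) :
    D k' ρ' (sub σ t) (sub τ M) (sub σ P) := by
  refine D.gen H (fun _ _ _ _ => id) ?_ ?_ (fun _ _ => .inl ⟨0, rfl, rfl⟩) h _ _ _ _ p g
  · rintro k ρ N _ (⟨j, rfl, rfl⟩ | ⟨Y, Q, rfl, d⟩)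
    · exact .inl ⟨j, rfl, rfl⟩
    · refine .inr ⟨_, _, rfl, ?_⟩
      have := d.ren (k + 2) (u1 (u1 ρ)) (fun i => i) (upr Nat.succ) (fun j hj => by
        obtain ⟨j, rfl⟩ : ∃ i, j = i + 1 := ⟨j - 1, by omega⟩
        change _ ≤ j + 1 + 1; omega) fun _ => rfl
      rwa [ren_id] at this
  · rintro k ρ N _ (⟨j, rfl, rfl⟩ | ⟨Y, Q, rfl, d⟩)
    · exact .inl ⟨j + 1, rfl, rfl⟩
    · refine .inr ⟨_, _, rfl, ?_⟩
      rw [ren_ren]
      exact d.ren (k + 3) (u1 (u2 ρ)) Nat.succ (fun i => upr Nat.succ (upr Nat.succ i))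
        (fun j hj => by
        obtain ⟨j, rfl⟩ : ∃ i, j = i + 1 := ⟨j - 1, by omega⟩
        change _ ≤ j + 1 + 1 + 1; omega) fun _ => rfl

theorem D.prog {k ρ} {t M P : Tm S} (h : D k ρ t M P) : ∀ {P'}, Wh P P' → D k ρ t M P' ∨
    ∃ P2 M' A N t' Y Q tA PA, Wh P' P2 ∧ Hd A N M M' ∧ D k ρ t' M' P2 ∧ R k t' t ∧
      R k t' (.lam Y Q) ∧ R k t' PA ∧ D (k + 1) (u1 ρ) (.var 0) N Q ∧ D k ρ tA A PA := by
  induction h with
  | var i a => intro _ h; exact absurd h (Neu.app _ (.var _)).not_wh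
  | @adm k ρ t t' N Q Y a b =>
    intro _ h
    cases h with
    | app _ h => cases h
    | beta =>
      have := a.sub k ρ .var (inst t') (fun j hj => by
        obtain ⟨j, rfl⟩ : ∃ i, j = i + 1 := ⟨j - 1, by omega⟩
        exact ⟨j, by omega, rfl⟩) fun i => .inl ⟨i, rfl, rfl⟩
      rw [sub_var] at this
      exact .inl (this.weak b)
  | sort => intro _ h; cases h
  | lam => intro _ h; cases h
  | pi => intro _ h; cases h
  | @app k ρ t M P N Q X Y a b ih =>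
    intro _ h
    cases h with
    | app _ h =>
    cases h with
    | app _ h =>
      rcases ih h with c | ⟨_, _, _, _, _, _, _, _, _, c1, c2, c3, c4⟩
      · exact .inl (.app _ _ c b)
      · exact .inr ⟨_, _, _, _, _, _, _, _, _, (c1.app _).app _, c2.app _, .app _ _ c3 b, c4⟩
    | beta X' =>
      cases a with
      | @lam _ _ _ tA A PA t' M0 P0 _ Y' c d e f g =>
        have p : Prot (k + 2) k fun i => P340.sub (inst (.lam Y Q)) (ups (inst X) i) :=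
          fun j hj => by
            obtain ⟨j, rfl⟩ : ∃ i, j = i + 2 := ⟨j - 2, by omega⟩
            exact ⟨j, by omega, rfl⟩
        have q : ∀ Z, P340.sub (fun i => P340.sub (inst (.lam Y Q)) (ups (inst X) i)) (sh (sh Z))
            = Z := fun Z => by rw [← sub_sub, sub_sh, inst_sh, inst_sh]
        have e' := e.sub p
        have g' := g.sub p
        rw [q] at e' g'
        refine .inr ⟨_, _, A, N, _, Y, Q, tA, PA, .beta _ _ _, .beta _, ?_, e', f.sub p, g', b, c⟩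
        rw [sub_sub]
        refine d.sub _ _ _ _ p fun i => ?_
        cases i with
        | zero => exact .inr ⟨_, _, rfl, b⟩
        | succ i => exact .inl ⟨i, rfl, rfl⟩

theorem D.neu {k ρ} {t M P : Tm S} (h : D k ρ t M P) (hP : Neu P) : Neu M := by
  induction h with
  | var => exact .var _
  | adm => cases hP with | app _ h => cases h
  | sort => exact .sort _
  | app _ _ _ _ ih =>
    cases hP with | app _ h => cases h with | app _ h => exact .app _ (ih h)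
  | lam => cases hP
  | pi => exact .pi _ _

theorem D.main (n : ℕ) : ∀ {k ρ} {t M P : Tm S}, D k ρ t M P → W n P → SN M ∧ W n t := by
  induction n using Nat.strong_induction_on with
  | _ n ih =>
  intro k ρ t M P d w
  cases w with
  | var => cases d
  | sort => cases d
  | @wh n _ P' a b =>
    rcases d.prog a with c | ⟨_, _, _, _, _, _, _, _, _, c1, c2, c3, c4, c5, c6, c7, c8⟩
    · exact (ih n (by omega) c b).imp id W.succ
    · obtain ⟨m, hm, w⟩ := b.inv_wh c1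
      obtain ⟨s, w⟩ := ih m (by omega) c3 w
      exact ⟨sn_exp c2 (ih m (by omega) c8 (c6.w w)).1
        (ih m (by omega) c7 (c5.w w).inv_lam.2).1 s, (c4.w w).mono (by omega)⟩
  | @app n _ _ a b c =>
    cases d with
    | var i r => exact ⟨⟨_, fun _ h => nomatch h⟩, (r.w c).succ⟩
    | adm => cases a
    | app X Y d1 d2 =>
      cases a with
      | app _ a =>
      obtain ⟨s, w⟩ := ih n (by omega) d1 (b.inv_app a).1
      exact ⟨sn_app (d1.neu a) s (ih n (by omega) d2 c.inv_lam.2).1, w.succ⟩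
  | @lam n _ _ a b =>
    cases d with
    | lam X Y d1 d2 r1 r2 r3 =>
      obtain ⟨s, w⟩ := ih n (by omega) d2 b.inv_lam.2
      exact ⟨sn_lam (ih n (by omega) d1 (r3.w w).unsh.unsh).1 s, (r1.w w).unsh.unsh.succ⟩
  | @pi n _ _ a b =>
    cases d with
    | sort s Y r => exact ⟨⟨_, fun _ h => nomatch h⟩, (r.w a).succ⟩
    | pi X Y d1 d2 r1 r2 r3 =>
      obtain ⟨s, w⟩ := ih n (by omega) d2 b.inv_pi.2
      exact ⟨sn_pi (ih n (by omega) d1 (r3.w w).unsh.unsh).1 s, (r1.w w).unsh.unsh.succ⟩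

end Vale.Agent.P340
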