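import Mathlib

namespace Vale.Agent.P340

universe v

/-- Expressions of a pure type system over the sorts `S`, with de Bruijn indices. -/
inductive Tm (S : Type v) : Type v
  | var : ℕ → Tm S
  | sort : S → Tm S
  | app : Tm S → Tm S → Tm S
  | lam : Tm S → Tm S → Tm S
  | pi : Tm S → Tm S → Tm S

open Tm

variable {S : Type v}

/-- A renaming of indices pushed under one binder. -/
def upr (r : ℕ → ℕ) : ℕ → ℕ
  | 0 => 0
  | n + 1 => r n + 1

/-- Renaming of free indices. -/
def ren : (ℕ → ℕ) → Tm S → Tm S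
  | r, var i => var (r i)
  | _, sort s => sort s
  | r, app M N => app (ren r M) (ren r N)
  | r, lam A M => lam (ren r A) (ren (upr r) M)
  | r, pi A B => pi (ren r A) (ren (upr r) B)

/-- Shift all free indices by one. -/
def sh (M : Tm S) : Tm S := ren Nat.succ M

/-- A simultaneous substitution pushed under one binder. -/
def ups (σ : ℕ → Tm S) : ℕ → Tm S
  | 0 => var 0
  | n + 1 => sh (σ n)

/-- Capture-free simultaneous substitution. -/
def sub : (ℕ → Tm S) → Tm S → Tm S
  | σ, var i => σ i
  | _, sort s => sort s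
  | σ, app M N => app (sub σ M) (sub σ N)
  | σ, lam A M => lam (sub σ A) (sub (ups σ) M)
  | σ, pi A B => pi (sub σ A) (sub (ups σ) B)

/-- The substitution sending the bound index `0` to `N` and lowering the others. -/
def inst (N : Tm S) : ℕ → Tm S
  | 0 => N
  | n + 1 => var n

/-- One-step beta reduction, in any subexpression (domains included). -/
inductive Step : Tm S → Tm S → Prop
  | beta (A M N : Tm S) : Step (app (lam A M) N) (sub (inst N) M)
  | appL {M M' : Tm S} (N : Tm S) : Step M M' → Step (app M N) (app M' N)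
  | appR (M : Tm S) {N N' : Tm S} : Step N N' → Step (app M N) (app M N')
  | lamL {A A' : Tm S} (M : Tm S) : Step A A' → Step (lam A M) (lam A' M)
  | lamR (A : Tm S) {M M' : Tm S} : Step M M' → Step (lam A M) (lam A M')
  | piL {A A' : Tm S} (B : Tm S) : Step A A' → Step (pi A B) (pi A' B)
  | piR (A : Tm S) {B B' : Tm S} : Step B B' → Step (pi A B) (pi A B')

/-- A pure type specification: axioms and rules on the sorts `S`. -/
structure PTS (S : Type v) where
  ax : S → S → Prop
  rule : S → S → S → Prop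

/-- The typing relation `Γ ⊢ M : B`; the head of the list is the last declaration. -/
inductive Ty (P : PTS S) : List (Tm S) → Tm S → Tm S → Prop
  | ax {s₁ s₂ : S} : P.ax s₁ s₂ → Ty P [] (sort s₁) (sort s₂)
  | var {Γ : List (Tm S)} {A : Tm S} {s : S} : Ty P Γ A (sort s) → Ty P (A :: Γ) (var 0) (sh A)
  | weak {Γ : List (Tm S)} {M B A : Tm S} {s : S} :
      Ty P Γ M B → Ty P Γ A (sort s) → Ty P (A :: Γ) (sh M) (sh B)
  | prod {Γ : List (Tm S)} {A B : Tm S} {s₁ s₂ s₃ : S} :
      Ty P Γ A (sort s₁) → Ty P (A :: Γ) B (sort s₂) → P.rule s₁ s₂ s₃ →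
      Ty P Γ (pi A B) (sort s₃)
  | abs {Γ : List (Tm S)} {A M B : Tm S} {s : S} :
      Ty P (A :: Γ) M B → Ty P Γ (pi A B) (sort s) → Ty P Γ (lam A M) (pi A B)
  | app {Γ : List (Tm S)} {M N A B : Tm S} :
      Ty P Γ M (pi A B) → Ty P Γ N A → Ty P Γ (app M N) (sub (inst N) B)
  | conv {Γ : List (Tm S)} {M A B : Tm S} {s : S} :
      Ty P Γ M A → Ty P Γ B (sort s) → Relation.EqvGen Step A B → Ty P Γ M B

/-- `M` is the subject or the type of a derivable judgment. -/
def Legal (P : PTS S) (M : Tm S) : Prop :=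
  ∃ (Γ : List (Tm S)) (B : Tm S), Ty P Γ M B ∨ Ty P Γ B M

/-- Every legal expression reduces to a beta normal form. -/
def WeakNorm (P : PTS S) : Prop :=
  ∀ M, Legal P M → ∃ N, Relation.ReflTransGen Step M N ∧ ∀ N', ¬ Step N N'

/-- No legal expression starts an infinite beta reduction sequence. -/
def StrongNorm (P : PTS S) : Prop :=
  ∀ M, Legal P M → ¬ ∃ f : ℕ → Tm S, f 0 = M ∧ ∀ n, Step (f n) (f (n + 1))

end Vale.Agent.P340
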