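import Vale.Agent.P340.Tr

namespace Vale.Agent.P340

open Tm Relation

universe v
variable {S : Type v} {P : PTS S}

inductive TV (P : PTS S) (u : S) : List (Tm S) → Prop
  | nil : TV P u []
  | cons {Γ A s} : TV P u Γ → Good P u Γ A (sort s) → TV P u (A :: Γ)

theorem body {u : S} (h1 : ∀ s, P.rule u s s) {Γ L k Δ ρ κ s₁ s₂ s₃} {U A M T : Tm S}
    (r : P.rule s₁ s₂ s₃) (hs : s₁ ∈ L) (e : Env P u L k Δ U) (m : Mq P Γ Δ U ρ κ)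
    (a : Ty P Δ (tr ρ U A) (sort s₁))
    (a' : ∀ t, Ty P Δ t U → ∃ Q, Ty P Δ Q (sort s₁) ∧ D k κ t A Q)
    (b : ∀ k Δ U ρ κ, Env P u L k Δ U → Mq P (A :: Γ) Δ U ρ κ → Ty P Δ (tr ρ U M) (tr ρ U T) ∧
      ∀ t, Ty P Δ t U → ∃ Q, Ty P Δ Q (tr ρ U T) ∧ D k κ t M Q) :
    Ty P (sh (arr U (tr ρ U A)) :: tr ρ U A :: Δ) (tr (up2 ρ) (sh (sh U)) M)
      (tr (up2 ρ) (sh (sh U)) T) ∧ ∀ t, Ty P Δ t U → ∃ Q,
      Ty P (sh (arr U (tr ρ U A)) :: tr ρ U A :: Δ) Q (tr (up2 ρ) (sh (sh U)) T) ∧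
      (∀ X Y, D k κ t (lam A M) (lam X (lam Y Q))) ∧ ∀ X Y, D k κ t (pi A M) (pi X (pi Y Q)) := by
  have c := e.1.arr a (h1 _)
  have c' := c.weak a
  have e2 := (e.weak a).weak c'
  obtain ⟨b1, b2⟩ := b _ _ _ _ _ e2 (m.up a c)
  refine ⟨b1, fun t ht => ?_⟩
  obtain ⟨PA, p1, p2⟩ := a' t ht
  obtain ⟨t', q1, q2, q3, q4⟩ := e2.mem hs r (.var c') (c'.weak c') ((p1.weak a).weak c')
    ((ht.weak a).weak c')
  obtain ⟨Q, q5, q6⟩ := b2 t' q1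
  exact ⟨Q, q5, fun X Y => .lam X Y p2 q6 q2 q3 q4, fun X Y => .pi X Y p2 q6 q2 q3 q4⟩

theorem Ty.good {u : S} (h1 : ∀ s, P.rule u s s)
    (h2 : ∀ s₁ s₂ s₃, P.rule s₁ s₂ s₃ → ∃ s, P.rule s₁ s₂ s ∧ P.rule s₁ s s₃)
    {Γ} {M T : Tm S} (h : Ty P Γ M T) : TV P u Γ ∧ Good P u Γ M T ∧
      ∀ A B, M = pi A B → ∃ s₁ s₂ s₃, P.rule s₁ s₂ s₃ ∧ Good P u Γ A (sort s₁) := by
  induction h with
  | ax a =>
    refine ⟨.nil, ⟨[], fun k Δ U ρ κ e m => ⟨e.1.valid.ax a, fun t ht => ?_⟩⟩,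
      fun _ _ e => nomatch e⟩
    obtain ⟨d, d1, d2⟩ := e.2.1
    exact ⟨_, (d2.ap ht).arr (e.1.valid.ax a) (h1 _), .sort _ _ (r_fam d1 _)⟩
  | var a ih =>
    refine ⟨ih.1.cons ih.2.1, ⟨[], fun k Δ U ρ κ e m => ?_⟩, fun _ _ e => nomatch e⟩
    have := m _ _ (.zero _ _)
    exact ⟨this.1, fun t ht => ⟨_, this.2.ap ht, .var _ (.refl _ _)⟩⟩
  | @weak Γ M _ C _ _ _ i1 i2 =>
    refine ⟨i1.1.cons i2.2.1, i1.2.1.weak _, fun _ _ e => ?_⟩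
    cases M with
    | pi A B =>
      cases e
      obtain ⟨_, _, _, r, a⟩ := i1.2.2 _ _ rfl
      exact ⟨_, _, _, r, a.weak C⟩
    | _ => cases e
  | @prod Γ A B s₁ s₂ s₃ _ _ r i1 i2 =>
    refine ⟨i1.1, ?_, fun _ _ e => by cases e; exact ⟨_, _, _, r, i1.2.1⟩⟩
    obtain ⟨L1, a⟩ := i1.2.1
    obtain ⟨L2, b⟩ := i2.2.1
    refine ⟨s₁ :: (L1 ++ L2), fun k Δ U ρ κ e m => ?_⟩
    obtain ⟨a1, a2⟩ := a _ _ _ _ _ (e.mono (by intro x; simp; tauto)) m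
    obtain ⟨b1, b2⟩ := body h1 r (by simp) e m a1 a2 fun k Δ U ρ κ e m =>
      b k Δ U ρ κ (e.mono (by intro x; simp; tauto)) m
    obtain ⟨s, r1, r2⟩ := h2 _ _ _ r
    have c := (e.1.arr a1 (h1 _)).weak a1
    refine ⟨.prod a1 (.prod c b1 r1) r2, fun t ht => ?_⟩
    obtain ⟨Q, q1, -, q2⟩ := b2 t ht
    exact ⟨_, .prod a1 (.prod c q1 r1) r2, q2 _ _⟩
  | @abs Γ A M B s _ _ i1 i2 =>
    refine ⟨i2.1, ?_, fun _ _ e => nomatch e⟩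
    obtain ⟨s₁, s₂, s₃, r, L1, a⟩ := i2.2.2 _ _ rfl
    obtain ⟨L2, b⟩ := i1.2.1
    obtain ⟨L3, c⟩ := i2.2.1
    refine ⟨s₁ :: (L1 ++ L2 ++ L3), fun k Δ U ρ κ e m => ?_⟩
    obtain ⟨a1, a2⟩ := a _ _ _ _ _ (e.mono (by intro x; simp; tauto)) m
    obtain ⟨b1, b2⟩ := body h1 r (by simp) e m a1 a2 fun k Δ U ρ κ e m =>
      b k Δ U ρ κ (e.mono (by intro x; simp; tauto)) m
    have c1 := (c _ _ _ _ _ (e.mono (by intro x; simp; tauto)) m).1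
    obtain ⟨_, _, _, -, -, c2⟩ := c1.gen rfl
    refine ⟨.abs (.abs b1 c2) c1, fun t ht => ?_⟩
    obtain ⟨Q, q1, q2, -⟩ := b2 t ht
    exact ⟨_, .abs (.abs q1 c2) c1, q2 _ _⟩
  | @app Γ M N A B _ _ i1 i2 =>
    refine ⟨i1.1, ?_, fun _ _ e => nomatch e⟩
    obtain ⟨L1, a⟩ := i1.2.1
    obtain ⟨L2, b⟩ := i2.2.1
    refine ⟨L1 ++ L2, fun k Δ U ρ κ e m => ?_⟩
    obtain ⟨a1, a2⟩ := a _ _ _ _ _ (e.mono (by simp)) m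
    have b1 := (b _ _ _ _ _ (e.mono (by simp)) m).1
    obtain ⟨_, _, _, -, c, -⟩ := a1.dom
    have c1 := e.1.arr c (h1 _)
    have key : ∀ F Z, Ty P Δ F (tr ρ U (pi A B)) → Ty P (U :: Δ) Z (sh (tr ρ U A)) →
        Ty P Δ (.app (.app F (tr ρ U N)) (lam U Z)) (tr ρ U (sub (P340.inst N) B)) :=
      fun F Z f z => by
      have f1 := Ty.app f b1
      simp only [sub, inst_sh] at f1
      have := f1.app (.abs z c1)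
      rwa [tr_inst] at this
    refine ⟨key _ _ a1 (b1.weak e.1), fun t ht => ?_⟩
    obtain ⟨Q, q1, q2⟩ := a2 t ht
    obtain ⟨Z, z1, z2⟩ := (b _ _ _ _ _ ((e.weak e.1).mono (by simp)) (m.weak e.1)).2 _ (.var e.1)
    rw [← sh_tr] at z1
    exact ⟨_, key _ _ q1 z1, .app _ _ q2 z2⟩
  | conv _ _ c i1 i2 =>
    refine ⟨i1.1, ?_, i1.2.2⟩
    obtain ⟨L1, a⟩ := i1.2.1
    obtain ⟨L2, b⟩ := i2.2.1
    refine ⟨L1 ++ L2, fun k Δ U ρ κ e m => ?_⟩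
    obtain ⟨a1, a2⟩ := a _ _ _ _ _ (e.mono (by simp)) m
    have b1 := (b _ _ _ _ _ (e.mono (by simp)) m).1
    refine ⟨.conv a1 b1 (cv_tr c _ _), fun t ht => ?_⟩
    obtain ⟨Q, q1, q2⟩ := a2 t ht
    exact ⟨Q, .conv q1 b1 (cv_tr c _ _), q2⟩

theorem base {u u' : S} (hu : P.ax u u') (h1 : ∀ s, P.rule u s s)
    (h3 : ∀ s₁ s₂ s₃, P.rule s₁ s₂ s₃ →
      ∃ a b c d, P.rule s₁ u a ∧ P.rule a u b ∧ P.ax b c ∧ P.rule c u d) (L : List S) :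
    ∃ k Δ U, Env P u L k Δ U := by
  induction L with
  | nil =>
    have a := Ty.var (Ty.ax hu)
    have b := a.arr (a.valid.ax hu) (h1 _)
    have c := Ty.var b
    rw [sh_arr] at c
    exact ⟨0, _, _, a.weak b, ⟨0, le_rfl, c⟩, fun _ h => nomatch h⟩
  | cons s L ih =>
    obtain ⟨k, Δ, U, e⟩ := ih
    by_cases f : ∃ s₂ s₃, P.rule s s₂ s₃
    · obtain ⟨_, _, r⟩ := f
      obtain ⟨a, b, c, d, r1, r2, r3, r4⟩ := h3 _ _ _ r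
      have x := (e.1.valid.ax r3).arr (e.1.arr e.1 (h1 _)) r4
      have y := Ty.var x
      rw [sh_arr, sh_arr] at y
      obtain ⟨e1, ⟨d, e2, e3⟩, e4⟩ := e.weak x
      refine ⟨0, _, _, e1, ⟨d, by omega, e3⟩, fun s' hs f => ?_⟩
      rcases List.mem_cons.1 hs with rfl | hs
      · exact ⟨a, b, 0, r1, r2, le_rfl, y⟩
      · obtain ⟨a, b, j, z1, z2, _, z3⟩ := e4 s' hs f
        exact ⟨a, b, j, z1, z2, by omega, z3⟩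
    · refine ⟨k, Δ, U, e.1, e.2.1, fun s' hs f' => ?_⟩
      rcases List.mem_cons.1 hs with rfl | hs
      · exact absurd f' f
      · exact e.2.2 s' hs f'

theorem TV.ctx {u : S} (h1 : ∀ s, P.rule u s s) (hb : ∀ L, ∃ k Δ U, Env P u L k Δ U) {Γ}
    (h : TV P u Γ) : ∀ L, ∃ k Δ U ρ κ, Env P u L k Δ U ∧ Mq P Γ Δ U ρ κ := by
  induction h with
  | nil =>
    intro L
    obtain ⟨k, Δ, U, e⟩ := hb L
    exact ⟨k, Δ, U, var, id, e, fun _ _ h => nomatch h⟩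
  | cons _ a ih =>
    intro L
    obtain ⟨L1, a⟩ := a
    obtain ⟨k, Δ, U, ρ, κ, e, m⟩ := ih (L ++ L1)
    have a1 := (a _ _ _ _ _ (e.mono (by simp)) m).1
    have c := e.1.arr a1 (h1 _)
    exact ⟨_, _, _, _, _, ((e.weak a1).weak (c.weak a1)).mono (by simp), m.up a1 c⟩

theorem sn_not {M : Tm S} (h : SN M) : ¬ ∃ f : ℕ → Tm S, f 0 = M ∧ ∀ n, Step (f n) (f (n + 1)) := by
  induction h with
  | intro M _ ih =>
    rintro ⟨f, rfl, hf⟩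
    exact ih _ (hf 0) ⟨fun n => f (n + 1), rfl, fun n => hf _⟩

theorem main {u u' : S} (hu : P.ax u u') (h1 : ∀ s, P.rule u s s)
    (h2 : ∀ s₁ s₂ s₃, P.rule s₁ s₂ s₃ → ∃ s, P.rule s₁ s₂ s ∧ P.rule s₁ s s₃)
    (h3 : ∀ s₁ s₂ s₃, P.rule s₁ s₂ s₃ →
      ∃ a b c d, P.rule s₁ u a ∧ P.rule a u b ∧ P.ax b c ∧ P.rule c u d)
    (hw : WeakNorm P) : StrongNorm P := by
  have key : ∀ Γ M T, Ty P Γ M T → SN M := fun Γ M T h => by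
    obtain ⟨a, ⟨L, b⟩, -⟩ := h.good h1 h2
    obtain ⟨k, Δ, U, ρ, κ, e, m⟩ := a.ctx h1 (base hu h1 h3) L
    obtain ⟨Q, q1, q2⟩ := (b _ _ _ _ _ (e.weak e.1) (m.weak e.1)).2 _ (.var e.1)
    obtain ⟨N, n1, n2⟩ := hw Q ⟨_, _, .inl q1⟩
    obtain ⟨n, w⟩ := wn_w n1 n2
    exact (D.main n q2 w).1
  rintro M ⟨Γ, B, h | h⟩
  · exact sn_not (key _ _ _ h)
  · obtain ⟨s, rfl | a⟩ := h.typ
    · exact sn_not ⟨_, fun _ h => nomatch h⟩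
    · exact sn_not (key _ _ _ a)

end Vale.Agent.P340
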