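import Vale.Agent.P340.Sub

namespace Vale.Agent.P340

open Tm Relation

universe v
variable {S : Type v}

inductive Wh : Tm S → Tm S → Prop
  | beta (A M N : Tm S) : Wh (app (lam A M) N) (sub (inst N) M)
  | app {M M' : Tm S} (Q : Tm S) : Wh M M' → Wh (app M Q) (app M' Q)

theorem Wh.sub {M M' : Tm S} (h : Wh M M') (σ : ℕ → Tm S) : Wh (sub σ M) (sub σ M') := by
  induction h with
  | beta A M N => rw [sub_inst]; exact .beta _ _ _
  | app N _ ih => exact .app _ ih

theorem Neu.not_wh {M : Tm S} (h : Neu M) : ∀ {M'}, ¬ Wh M M' := by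
  induction h with
  | var i => intro _ h; cases h
  | sort i => intro _ h; cases h
  | pi A B => intro _ h; cases h
  | app N h0 ih =>
    intro _ h
    cases h with
    | beta => cases h0
    | app _ h => exact ih h

theorem Wh.det {M M' : Tm S} (h : Wh M M') : ∀ {M''}, Wh M M'' → M' = M'' := by
  induction h with
  | beta A M N =>
    intro _ h
    cases h with
    | beta => rfl
    | app _ h => cases h
  | app N h0 ih =>
    intro _ h
    cases h with
    | beta => cases h0
    | app _ h => rw [ih h]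

abbrev Whs : Tm S → Tm S → Prop := ReflTransGen Wh

theorem whs_app {a b : Tm S} (h : Whs a b) (c : Tm S) : Whs (app a c) (app b c) := by
  induction h with
  | refl => exact .refl
  | tail _ h ih => exact ih.tail (.app _ h)

theorem whs_sub {a b : Tm S} (h : Whs a b) (σ : ℕ → Tm S) : Whs (sub σ a) (sub σ b) := by
  induction h with
  | refl => exact .refl
  | tail _ h ih => exact ih.tail (h.sub _)

inductive St : Tm S → Tm S → Prop
  | var {P : Tm S} {i : ℕ} : Whs P (var i) → St P (var i)
  | sort {P : Tm S} {s : S} : Whs P (sort s) → St P (sort s)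
  | app {P A B A' B' : Tm S} : Whs P (app A B) → St A A' → St B B' → St P (app A' B')
  | lam {P A B A' B' : Tm S} : Whs P (lam A B) → St A A' → St B B' → St P (lam A' B')
  | pi {P A B A' B' : Tm S} : Whs P (pi A B) → St A A' → St B B' → St P (pi A' B')

theorem St.refl (M : Tm S) : St M M := by
  induction M with
  | var i => exact .var .refl
  | sort s => exact .sort .refl
  | app M N h1 h2 => exact .app .refl h1 h2
  | lam M N h1 h2 => exact .lam .refl h1 h2
  | pi M N h1 h2 => exact .pi .refl h1 h2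

theorem St.wh {P P' Q : Tm S} (h : Whs P P') (h' : St P' Q) : St P Q := by
  cases h' with
  | var a => exact .var (h.trans a)
  | sort a => exact .sort (h.trans a)
  | app a b c => exact .app (h.trans a) b c
  | lam a b c => exact .lam (h.trans a) b c
  | pi a b c => exact .pi (h.trans a) b c

theorem ups_ren (r : ℕ → ℕ) : ups (fun i => (var (r i) : Tm S)) = fun i => var (upr r i) := by
  funext i; cases i <;> rfl

theorem St.ren {P Q : Tm S} (h : St P Q) : ∀ r : ℕ → ℕ, St (ren r P) (ren r Q) := by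
  induction h with
  | var a => intro r; rw [ren_eq]; exact .var (whs_sub a _)
  | sort a => intro r; rw [ren_eq]; exact .sort (whs_sub a _)
  | app a _ _ i1 i2 =>
    intro r; have := whs_sub a fun i => .var (r i)
    rw [← ren_eq, ← ren_eq] at this
    exact .app this (i1 _) (i2 _)
  | lam a _ _ i1 i2 =>
    intro r; have := whs_sub a fun i => .var (r i)
    rw [← ren_eq, ← ren_eq] at this
    exact .lam this (i1 _) (i2 _)
  | pi a _ _ i1 i2 =>
    intro r; have := whs_sub a fun i => .var (r i)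
    rw [← ren_eq, ← ren_eq] at this
    exact .pi this (i1 _) (i2 _)

theorem st_ups {σ τ : ℕ → Tm S} (h : ∀ i, St (σ i) (τ i)) (i : ℕ) : St (ups σ i) (ups τ i) := by
  cases i with
  | zero => exact .refl _
  | succ i => exact (h i).ren _

theorem St.sub {P Q : Tm S} (h : St P Q) : ∀ σ τ : ℕ → Tm S, (∀ i, St (σ i) (τ i)) →
    St (sub σ P) (sub τ Q) := by
  induction h with
  | var a => exact fun σ τ h => .wh (whs_sub a σ) (h _)
  | sort a => exact fun σ τ h => .sort (whs_sub a σ)
  | app a _ _ i1 i2 => exact fun σ τ h => .app (whs_sub a σ) (i1 _ _ h) (i2 _ _ h)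
  | lam a _ _ i1 i2 => exact fun σ τ h => .lam (whs_sub a σ) (i1 _ _ h) (i2 _ _ (st_ups h))
  | pi a _ _ i1 i2 => exact fun σ τ h => .pi (whs_sub a σ) (i1 _ _ h) (i2 _ _ (st_ups h))

theorem St.step {P Q : Tm S} (h : St P Q) : ∀ {R}, Step Q R → St P R := by
  induction h with
  | var a => intro _ h; cases h
  | sort a => intro _ h; cases h
  | app a b c i1 i2 =>
    intro _ h
    cases h with
    | beta =>
      cases b with
      | lam b1 b2 b3 =>
        refine .wh ((a.trans (whs_app b1 _)).tail (.beta _ _ _)) (b3.sub _ _ fun i => ?_)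
        cases i with
        | zero => exact c
        | succ i => exact .refl _
    | appL _ h => exact .app a (i1 h) c
    | appR _ h => exact .app a b (i2 h)
  | lam a b c i1 i2 =>
    intro _ h
    cases h with
    | lamL _ h => exact .lam a (i1 h) c
    | lamR _ h => exact .lam a b (i2 h)
  | pi a b c i1 i2 =>
    intro _ h
    cases h with
    | piL _ h => exact .pi a (i1 h) c
    | piR _ h => exact .pi a b (i2 h)

theorem red_st {P Q : Tm S} (h : Red P Q) : St P Q := by
  induction h with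
  | refl => exact .refl _
  | tail _ h ih => exact ih.step h

inductive W : ℕ → Tm S → Prop
  | var (n i : ℕ) : W (n + 1) (var i)
  | sort (n : ℕ) (s : S) : W (n + 1) (sort s)
  | app {n : ℕ} {A B : Tm S} : Neu A → W n A → W n B → W (n + 1) (app A B)
  | lam {n : ℕ} {A B : Tm S} : W n A → W n B → W (n + 1) (lam A B)
  | pi {n : ℕ} {A B : Tm S} : W n A → W n B → W (n + 1) (pi A B)
  | wh {n : ℕ} {A B : Tm S} : Wh A B → W n B → W (n + 1) A

theorem W.succ {n : ℕ} {M : Tm S} (h : W n M) : W (n + 1) M := by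
  induction h with
  | var => exact .var _ _
  | sort => exact .sort _ _
  | app a _ _ i1 i2 => exact .app a i1 i2
  | lam _ _ i1 i2 => exact .lam i1 i2
  | pi _ _ i1 i2 => exact .pi i1 i2
  | wh a _ i1 => exact .wh a i1

theorem W.mono {n m : ℕ} {M : Tm S} (h : W n M) (hm : n ≤ m) : W m M := by
  induction hm with
  | refl => exact h
  | step _ ih => exact ih.succ

theorem w_whs {P Q : Tm S} (h : Whs P Q) (hQ : ∃ n, W n Q) : ∃ n, W n P := by
  induction h using ReflTransGen.head_induction_on with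
  | refl => exact hQ
  | head a _ ih => exact ih.elim fun n h => ⟨n + 1, .wh a h⟩

theorem nf_neu (N : Tm S) (h : ∀ N', ¬ Step N N') : Neu N ∨ ∃ A M, N = lam A M := by
  induction N with
  | var i => exact .inl (.var _)
  | sort s => exact .inl (.sort _)
  | app M N h1 _ =>
    rcases h1 fun _ a => h _ (.appL _ a) with a | ⟨_, _, rfl⟩
    · exact .inl (.app _ a)
    · exact absurd (.beta _ _ _) (h _)
  | lam M N => exact .inr ⟨_, _, rfl⟩
  | pi M N => exact .inl (.pi _ _)

theorem st_w {P N : Tm S} (h : St P N) (hN : ∀ N', ¬ Step N N') :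
    ∃ P', Whs P P' ∧ (∃ n, W n P') ∧ (Neu N → Neu P') := by
  induction h with
  | var a => exact ⟨_, a, ⟨1, .var _ _⟩, id⟩
  | sort a => exact ⟨_, a, ⟨1, .sort _ _⟩, id⟩
  | @app P A B A' B' a _ _ i1 i2 =>
    have h1 : ∀ N', ¬ Step A' N' := fun _ a => hN _ (.appL _ a)
    obtain ⟨A1, a1, ⟨n, a2⟩, a3⟩ := i1 h1
    obtain ⟨B1, b1, b2, -⟩ := i2 fun _ a => hN _ (.appR _ a)
    obtain ⟨m, b3⟩ := w_whs b1 b2
    have : Neu A1 := a3 <| (nf_neu _ h1).resolve_right fun ⟨_, _, e⟩ => by
      subst e; exact hN _ (.beta _ _ _)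
    exact ⟨_, a.trans (whs_app a1 _), ⟨max n m + 1, .app this (a2.mono (le_max_left _ _))
      (b3.mono (le_max_right _ _))⟩, fun _ => .app _ this⟩
  | lam a _ _ i1 i2 =>
    obtain ⟨A1, a1, a2, -⟩ := i1 fun _ a => hN _ (.lamL _ a)
    obtain ⟨B1, b1, b2, -⟩ := i2 fun _ a => hN _ (.lamR _ a)
    obtain ⟨n, a3⟩ := w_whs a1 a2
    obtain ⟨m, b3⟩ := w_whs b1 b2
    exact ⟨_, a, ⟨max n m + 1, .lam (a3.mono (le_max_left _ _))
      (b3.mono (le_max_right _ _))⟩, fun h => nomatch h⟩
  | pi a _ _ i1 i2 =>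
    obtain ⟨A1, a1, a2, -⟩ := i1 fun _ a => hN _ (.piL _ a)
    obtain ⟨B1, b1, b2, -⟩ := i2 fun _ a => hN _ (.piR _ a)
    obtain ⟨n, a3⟩ := w_whs a1 a2
    obtain ⟨m, b3⟩ := w_whs b1 b2
    exact ⟨_, a, ⟨max n m + 1, .pi (a3.mono (le_max_left _ _))
      (b3.mono (le_max_right _ _))⟩, fun _ => .pi _ _⟩

theorem wn_w {P N : Tm S} (h : Red P N) (hN : ∀ N', ¬ Step N N') : ∃ n, W n P :=
  let ⟨_, a, b, _⟩ := st_w (red_st h) hN
  w_whs a b

theorem Neu.ren {M : Tm S} (h : Neu M) (r : ℕ → ℕ) : Neu (ren r M) := by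
  induction h with
  | var => exact .var _
  | sort => exact .sort _
  | pi => exact .pi _ _
  | app _ _ ih => exact .app _ ih

theorem W.ren {n : ℕ} {M : Tm S} (h : W n M) : ∀ r : ℕ → ℕ, W n (ren r M) := by
  induction h with
  | var => exact fun _ => .var _ _
  | sort => exact fun _ => .sort _ _
  | app a _ _ i1 i2 => exact fun r => .app (a.ren r) (i1 r) (i2 r)
  | lam _ _ i1 i2 => exact fun r => .lam (i1 r) (i2 _)
  | pi _ _ i1 i2 => exact fun r => .pi (i1 r) (i2 _)
  | wh a _ i1 =>
    intro r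
    have := a.sub fun i => .var (r i)
    rw [← ren_eq, ← ren_eq] at this
    exact .wh this (i1 r)

theorem W.unsh {n : ℕ} {M : Tm S} (h : W n (sh M)) : W n M := by
  have := h.ren Nat.pred
  rw [sh, ren_ren, ren_eq] at this
  exact sub_var M ▸ this

theorem W.inv_wh {n : ℕ} {M M' : Tm S} (h : W n M) (hs : Wh M M') : ∃ m, m < n ∧ W m M' := by
  cases h with
  | var => cases hs
  | sort => cases hs
  | app a => exact absurd hs (Neu.app _ a).not_wh
  | lam => cases hs
  | pi => cases hs
  | wh a b => exact ⟨_, Nat.lt_succ_self _, a.det hs ▸ b⟩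

theorem W.inv_app {n : ℕ} {M N : Tm S} (h : W n (.app M N)) (hM : Neu M) : W n M ∧ W n N := by
  cases h with
  | app _ a b => exact ⟨a.succ, b.succ⟩
  | wh a b => exact absurd a (Neu.app _ hM).not_wh

theorem W.inv_pi {n : ℕ} {M N : Tm S} (h : W n (.pi M N)) : W n M ∧ W n N := by
  cases h with
  | pi a b => exact ⟨a.succ, b.succ⟩
  | wh a b => cases a

theorem W.inv_lam {n : ℕ} {M N : Tm S} (h : W n (.lam M N)) : W n M ∧ W n N := by
  cases h with
  | lam a b => exact ⟨a.succ, b.succ⟩
  | wh a b => cases a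

end Vale.Agent.P340
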