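import Vale.Agent.P340.Defs

namespace Vale.Agent.P340

open Tm Relation

universe v
variable {S : Type v}

theorem ren_ren (M : Tm S) : ∀ r q : ℕ → ℕ, ren r (ren q M) = ren (fun i => r (q i)) M := by
  induction M with
  | var i => intros; rfl
  | sort s => intros; rfl
  | app M N h1 h2 => intro r q; simp only [ren, h1, h2]
  | lam M N h1 h2 =>
    intro r q; simp only [ren, h1, h2]; congr 2; funext i; cases i <;> rfl
  | pi M N h1 h2 =>
    intro r q; simp only [ren, h1, h2]; congr 2; funext i; cases i <;> rfl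

theorem sub_ren (M : Tm S) : ∀ (σ : ℕ → Tm S) (q : ℕ → ℕ),
    sub σ (ren q M) = sub (fun i => σ (q i)) M := by
  induction M with
  | var i => intros; rfl
  | sort s => intros; rfl
  | app M N h1 h2 => intro r q; simp only [ren, sub, h1, h2]
  | lam M N h1 h2 =>
    intro r q; simp only [ren, sub, h1, h2]; congr 2; funext i; cases i <;> rfl
  | pi M N h1 h2 =>
    intro r q; simp only [ren, sub, h1, h2]; congr 2; funext i; cases i <;> rfl

theorem ren_sh (r : ℕ → ℕ) (M : Tm S) : ren (upr r) (sh M) = sh (ren r M) := by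
  simp only [sh, ren_ren]; rfl

theorem ren_sub (M : Tm S) : ∀ (r : ℕ → ℕ) (σ : ℕ → Tm S),
    ren r (sub σ M) = sub (fun i => ren r (σ i)) M := by
  induction M with
  | var i => intros; rfl
  | sort s => intros; rfl
  | app M N h1 h2 => intro r q; simp only [ren, sub, h1, h2]
  | lam M N h1 h2 =>
    intro r q; simp only [ren, sub, h1, h2]; congr 2; funext i
    cases i with
    | zero => rfl
    | succ i => exact ren_sh _ _
  | pi M N h1 h2 =>
    intro r q; simp only [ren, sub, h1, h2]; congr 2; funext i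
    cases i with
    | zero => rfl
    | succ i => exact ren_sh _ _

theorem sub_sh (σ : ℕ → Tm S) (M : Tm S) : sub (ups σ) (sh M) = sh (sub σ M) := by
  simp only [sh, sub_ren, ren_sub]; rfl

theorem sub_sub (M : Tm S) : ∀ (σ τ : ℕ → Tm S),
    sub σ (sub τ M) = sub (fun i => sub σ (τ i)) M := by
  induction M with
  | var i => intros; rfl
  | sort s => intros; rfl
  | app M N h1 h2 => intro r q; simp only [sub, h1, h2]
  | lam M N h1 h2 =>
    intro r q; simp only [sub, h1, h2]; congr 2; funext i
    cases i with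
    | zero => rfl
    | succ i => exact sub_sh _ _
  | pi M N h1 h2 =>
    intro r q; simp only [sub, h1, h2]; congr 2; funext i
    cases i with
    | zero => rfl
    | succ i => exact sub_sh _ _

theorem ups_var : ups (var : ℕ → Tm S) = var := by
  funext i; cases i <;> rfl

theorem sub_var (M : Tm S) : sub var M = M := by
  induction M with
  | var i => rfl
  | sort s => rfl
  | app M N h1 h2 => simp only [sub, h1, h2]
  | lam M N h1 h2 => simp only [sub, ups_var, h1, h2]
  | pi M N h1 h2 => simp only [sub, ups_var, h1, h2]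

theorem ren_eq (r : ℕ → ℕ) (M : Tm S) : ren r M = sub (fun i => var (r i)) M := by
  conv_lhs => rw [← sub_var (ren r M), sub_ren]

theorem inst_sh (N M : Tm S) : sub (inst N) (sh M) = M := by
  simp only [sh, sub_ren]; exact sub_var M

theorem sub_sh' (σ : ℕ → Tm S) (M : Tm S) : sub σ (sh M) = sub (fun i => σ (i + 1)) M :=
  sub_ren _ _ _

theorem sub_inst (σ : ℕ → Tm S) (N M : Tm S) :
    sub σ (sub (inst N) M) = sub (inst (sub σ N)) (sub (ups σ) M) := by
  simp only [sub_sub]; congr 1; funext i
  cases i with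
  | zero => rfl
  | succ i => exact (inst_sh _ _).symm

theorem Step.sub {M M' : Tm S} (h : Step M M') : ∀ σ, Step (sub σ M) (sub σ M') := by
  induction h with
  | beta A M N => intro σ; rw [sub_inst]; exact .beta _ _ _
  | appL N _ ih => exact fun σ => .appL _ (ih σ)
  | appR N _ ih => exact fun σ => .appR _ (ih σ)
  | lamL N _ ih => exact fun σ => .lamL _ (ih σ)
  | lamR N _ ih => exact fun σ => .lamR _ (ih _)
  | piL N _ ih => exact fun σ => .piL _ (ih σ)
  | piR N _ ih => exact fun σ => .piR _ (ih _)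

theorem Step.ren {M M' : Tm S} (h : Step M M') (r : ℕ → ℕ) : Step (ren r M) (ren r M') := by
  rw [ren_eq, ren_eq]; exact h.sub _

abbrev Red : Tm S → Tm S → Prop := ReflTransGen Step

theorem red_map (f : Tm S → Tm S) (hf : ∀ a b, Step a b → Step (f a) (f b)) {a b : Tm S}
    (h : Red a b) : Red (f a) (f b) := by
  induction h with
  | refl => exact .refl
  | tail _ h ih => exact ih.tail (hf _ _ h)

theorem red_app {a b c d : Tm S} (h1 : Red a b) (h2 : Red c d) : Red (app a c) (app b d) :=
  (red_map (fun x => app x c) (fun _ _ => .appL _) h1).trans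
    (red_map (fun x => app b x) (fun _ _ => .appR _) h2)

theorem red_lam {a b c d : Tm S} (h1 : Red a b) (h2 : Red c d) : Red (lam a c) (lam b d) :=
  (red_map (fun x => lam x c) (fun _ _ => .lamL _) h1).trans
    (red_map (fun x => lam b x) (fun _ _ => .lamR _) h2)

theorem red_pi {a b c d : Tm S} (h1 : Red a b) (h2 : Red c d) : Red (pi a c) (pi b d) :=
  (red_map (fun x => pi x c) (fun _ _ => .piL _) h1).trans
    (red_map (fun x => pi b x) (fun _ _ => .piR _) h2)

theorem red_sh {a b : Tm S} (h : Red a b) : Red (sh a) (sh b) :=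
  red_map sh (fun _ _ h => h.ren _) h

theorem red_ups {σ τ : ℕ → Tm S} (h : ∀ i, Red (σ i) (τ i)) (i : ℕ) : Red (ups σ i) (ups τ i) := by
  cases i with
  | zero => exact .refl
  | succ i => exact red_sh (h i)

theorem red_sub (M : Tm S) : ∀ σ τ : ℕ → Tm S, (∀ i, Red (σ i) (τ i)) →
    Red (sub σ M) (sub τ M) := by
  induction M with
  | var i => exact fun _ _ h => h i
  | sort s => exact fun _ _ _ => .refl
  | app M N h1 h2 => exact fun _ _ h => red_app (h1 _ _ h) (h2 _ _ h)
  | lam M N h1 h2 => exact fun _ _ h => red_lam (h1 _ _ h) (h2 _ _ (red_ups h))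
  | pi M N h1 h2 => exact fun _ _ h => red_pi (h1 _ _ h) (h2 _ _ (red_ups h))

theorem cv_sub {A B : Tm S} (h : EqvGen Step A B) (σ : ℕ → Tm S) :
    EqvGen Step (sub σ A) (sub σ B) := by
  induction h with
  | rel a b h => exact .rel _ _ (h.sub σ)
  | refl a => exact .refl _
  | symm a b _ ih => exact .symm _ _ ih
  | trans a b c _ _ i1 i2 => exact .trans _ _ _ i1 i2

theorem red_cv {A B : Tm S} (h : Red A B) : EqvGen Step A B := by
  induction h with
  | refl => exact .refl _
  | tail _ h ih => exact .trans _ _ _ ih (.rel _ _ h)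

/-! Strong normalisation -/

def SN (M : Tm S) : Prop := Acc (fun a b : Tm S => Step b a) M

inductive Hd (A N : Tm S) : Tm S → Tm S → Prop
  | beta (M : Tm S) : Hd A N (app (lam A M) N) (sub (inst N) M)
  | app {M M' : Tm S} (Q : Tm S) : Hd A N M M' → Hd A N (app M Q) (app M' Q)

theorem hd_step {A N M M' : Tm S} (h : Hd A N M M') : ∀ M1, Step M M1 → M1 = M' ∨
    (∃ A1, Step A A1 ∧ Hd A1 N M1 M') ∨ (∃ N1 M'', Step N N1 ∧ Red M' M'' ∧ Hd A N1 M1 M'') ∨
    ∃ M'', Step M' M'' ∧ Hd A N M1 M'' := by
  induction h with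
  | beta M =>
    intro M1 h
    cases h with
    | beta => exact .inl rfl
    | appL _ h =>
      cases h with
      | lamL _ h => exact .inr (.inl ⟨_, h, .beta _⟩)
      | lamR _ h => exact .inr (.inr (.inr ⟨_, h.sub _, .beta _⟩))
    | appR _ h =>
      refine .inr (.inr (.inl ⟨_, _, h, red_sub _ _ _ fun i => ?_, .beta _⟩))
      cases i with
      | zero => exact .single h
      | succ i => exact .refl
  | app Q h0 ih =>
    intro M1 h
    cases h with
    | beta => cases h0
    | appL _ h =>
      rcases ih _ h with rfl | ⟨_, a, b⟩ | ⟨_, _, a, b, c⟩ | ⟨_, a, b⟩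
      · exact .inl rfl
      · exact .inr (.inl ⟨_, a, b.app _⟩)
      · exact .inr (.inr (.inl ⟨_, _, a, red_app b .refl, c.app _⟩))
      · exact .inr (.inr (.inr ⟨_, .appL _ a, b.app _⟩))
    | appR _ h => exact .inr (.inr (.inr ⟨_, .appR _ h, h0.app _⟩))

theorem sn_exp {A N M M' : Tm S} (h : Hd A N M M') (hA : SN A) (hN : SN N) (hM : SN M') :
    SN M := by
  have hT := hM.transGen
  induction hT generalizing A N M with
  | intro M' _ i1 =>
  induction hA generalizing N M with
  | intro A a1 i2 =>
  induction hN generalizing M with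
  | intro N n1 i3 =>
  refine ⟨_, fun M1 hs => ?_⟩
  rcases hd_step h M1 hs with rfl | ⟨_, a, b⟩ | ⟨_, _, a, b, c⟩ | ⟨_, a, b⟩
  · exact hM
  · exact i2 _ a b ⟨_, n1⟩
  · rcases (reflTransGen_iff_eq_or_transGen.1 b) with rfl | b
    · exact i3 _ a c
    · exact i1 _ (transGen_swap.2 b) c ⟨_, a1⟩ (n1 _ a)
        (Subrelation.accessible (fun h => .single h) (hM.transGen.inv (transGen_swap.2 b)))
  · exact i1 _ (.single a) b ⟨_, a1⟩ ⟨_, n1⟩ (hM.inv a)

inductive Neu : Tm S → Prop
  | var (i : ℕ) : Neu (var i)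
  | sort (s : S) : Neu (sort s)
  | pi (A B : Tm S) : Neu (pi A B)
  | app {M : Tm S} (N : Tm S) : Neu M → Neu (app M N)

theorem Neu.step {M : Tm S} (h : Neu M) : ∀ {M'}, Step M M' → Neu M' := by
  induction h with
  | var i => intro _ h; cases h
  | sort i => intro _ h; cases h
  | pi A B => intro _ h; cases h <;> exact .pi _ _
  | app N h0 ih =>
    intro _ h
    cases h with
    | beta => cases h0
    | appL _ h => exact .app _ (ih h)
    | appR _ h => exact .app _ h0

theorem sn_app {M N : Tm S} (h : Neu M) (hM : SN M) (hN : SN N) : SN (app M N) := by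
  induction hM generalizing N with
  | intro M m1 i1 =>
  induction hN with
  | intro N n1 i2 =>
  refine ⟨_, fun M1 hs => ?_⟩
  cases hs with
  | beta => cases h
  | appL _ a => exact i1 _ a (h.step a) ⟨_, n1⟩
  | appR _ a => exact i2 _ a

theorem sn_lam {M N : Tm S} (hM : SN M) (hN : SN N) : SN (lam M N) := by
  induction hM generalizing N with
  | intro M m1 i1 =>
  induction hN with
  | intro N n1 i2 =>
  refine ⟨_, fun M1 hs => ?_⟩
  cases hs with
  | lamL _ a => exact i1 _ a ⟨_, n1⟩
  | lamR _ a => exact i2 _ a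

theorem sn_pi {M N : Tm S} (hM : SN M) (hN : SN N) : SN (pi M N) := by
  induction hM generalizing N with
  | intro M m1 i1 =>
  induction hN with
  | intro N n1 i2 =>
  refine ⟨_, fun M1 hs => ?_⟩
  cases hs with
  | piL _ a => exact i1 _ a ⟨_, n1⟩
  | piR _ a => exact i2 _ a

end Vale.Agent.P340
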