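import Vale.Agent.P340.Typ
import Vale.Agent.P340.Dec

namespace Vale.Agent.P340

open Tm Relation

universe v
variable {S : Type v} {P : PTS S}

def arr (X Y : Tm S) : Tm S := pi X (sh Y)

theorem sub_arr (σ : ℕ → Tm S) (X Y : Tm S) : sub σ (arr X Y) = arr (sub σ X) (sub σ Y) := by
  simp only [arr, sub, sub_sh]

theorem sh_arr (X Y : Tm S) : sh (arr X Y) = arr (sh X) (sh Y) := by
  simp only [arr, sh, ren]; congr 1; exact ren_sh _ _

def up2 (ρ : ℕ → Tm S) : ℕ → Tm S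
  | 0 => var 1
  | n + 1 => sh (sh (ρ n))

def tr : (ℕ → Tm S) → Tm S → Tm S → Tm S
  | ρ, _, var i => ρ i
  | _, _, sort s => sort s
  | ρ, U, app M N => app (app (tr ρ U M) (tr ρ U N)) (lam U (sh (tr ρ U N)))
  | ρ, U, lam A M => lam (tr ρ U A) (lam (sh (arr U (tr ρ U A))) (tr (up2 ρ) (sh (sh U)) M))
  | ρ, U, pi A M => pi (tr ρ U A) (pi (sh (arr U (tr ρ U A))) (tr (up2 ρ) (sh (sh U)) M))

theorem sub_tr (M : Tm S) : ∀ (σ ρ : ℕ → Tm S) (U : Tm S),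
    sub σ (tr ρ U M) = tr (fun i => sub σ (ρ i)) (sub σ U) M := by
  have e : ∀ σ ρ : ℕ → Tm S, (fun i => sub (ups (ups σ)) (up2 ρ i)) = up2 fun i => sub σ (ρ i) :=
    fun σ ρ => by
    funext i
    cases i with
    | zero => rfl
    | succ i => simp only [up2, sub_sh]
  induction M with
  | var i => intros; rfl
  | sort s => intros; rfl
  | app M N h1 h2 => intro σ ρ U; simp only [tr, sub, h1, h2, sub_sh]
  | lam M N h1 h2 => intro σ ρ U; simp only [tr, sub, h1, h2, sub_sh, sub_arr, e]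
  | pi M N h1 h2 => intro σ ρ U; simp only [tr, sub, h1, h2, sub_sh, sub_arr, e]

theorem sh_tr (M : Tm S) (ρ : ℕ → Tm S) (U : Tm S) :
    sh (tr ρ U M) = tr (fun i => sh (ρ i)) (sh U) M := by
  simp only [sh, ren_eq, sub_tr]

theorem tr_ren (M : Tm S) : ∀ (r : ℕ → ℕ) (ρ : ℕ → Tm S) (U : Tm S),
    tr ρ U (ren r M) = tr (fun i => ρ (r i)) U M := by
  have e : ∀ (r : ℕ → ℕ) (ρ : ℕ → Tm S), (fun i => up2 ρ (upr r i)) = up2 fun i => ρ (r i) :=
    fun σ ρ => by funext i; cases i <;> rfl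
  induction M with
  | var i => intros; rfl
  | sort s => intros; rfl
  | app M N h1 h2 => intro σ ρ U; simp only [tr, ren, h1, h2]
  | lam M N h1 h2 => intro σ ρ U; simp only [tr, ren, h1, h2, e]
  | pi M N h1 h2 => intro σ ρ U; simp only [tr, ren, h1, h2, e]

theorem tr_sh (M : Tm S) (ρ : ℕ → Tm S) (U : Tm S) :
    tr ρ U (sh M) = tr (fun i => ρ (i + 1)) U M := tr_ren _ _ _ _

theorem tr_sh2 (M : Tm S) (ρ : ℕ → Tm S) (U : Tm S) :
    tr (up2 ρ) (sh (sh U)) (sh M) = sh (sh (tr ρ U M)) := by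
  rw [tr_sh, sh_tr, sh_tr]; rfl

theorem tr_sub (M : Tm S) : ∀ (τ ρ : ℕ → Tm S) (U : Tm S),
    tr ρ U (sub τ M) = tr (fun i => tr ρ U (τ i)) U M := by
  have e : ∀ (τ ρ : ℕ → Tm S) (U : Tm S), (fun i => tr (up2 ρ) (sh (sh U)) (ups τ i)) =
      up2 fun i => tr ρ U (τ i) := fun τ ρ U => by
    funext i
    cases i with
    | zero => rfl
    | succ i => exact tr_sh2 _ _ _
  induction M with
  | var i => intros; rfl
  | sort s => intros; rfl
  | app M N h1 h2 => intro σ ρ U; simp only [tr, sub, h1, h2]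
  | lam M N h1 h2 => intro σ ρ U; simp only [tr, sub, h1, h2, e]
  | pi M N h1 h2 => intro σ ρ U; simp only [tr, sub, h1, h2, e]

theorem tr_inst (M N Z : Tm S) (ρ : ℕ → Tm S) (U : Tm S) :
    sub (inst Z) (sub (ups (inst (tr ρ U N))) (tr (up2 ρ) (sh (sh U)) M)) =
      tr ρ U (sub (inst N) M) := by
  rw [sub_tr, sub_tr, tr_sub, sub_sh, inst_sh, inst_sh]
  congr 1
  funext i
  cases i with
  | zero => exact inst_sh _ _
  | succ i => simp only [up2, sub_sh, inst_sh]; rfl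

theorem red_arr {a b : Tm S} (U : Tm S) (h : Red a b) : Red (sh (arr U a)) (sh (arr U b)) :=
  red_sh (red_pi .refl (red_sh h))

theorem Step.tr {M M' : Tm S} (h : Step M M') : ∀ ρ U, Red (tr ρ U M) (tr ρ U M') := by
  induction h with
  | beta A M N =>
    intro ρ U
    rw [← tr_inst M N (lam U (sh (P340.tr ρ U N)))]
    exact (ReflTransGen.single (.appL _ (.beta _ _ _))).tail (.beta _ _ _)
  | appL N _ ih => exact fun ρ U => red_app (red_app (ih _ _) .refl) .refl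
  | appR N _ ih =>
    exact fun ρ U => red_app (red_app .refl (ih _ _)) (red_lam .refl (red_sh (ih _ _)))
  | lamL N _ ih => exact fun ρ U => red_lam (ih _ _) (red_lam (red_arr _ (ih _ _)) .refl)
  | lamR N _ ih => exact fun ρ U => red_lam .refl (red_lam .refl (ih _ _))
  | piL N _ ih => exact fun ρ U => red_pi (ih _ _) (red_pi (red_arr _ (ih _ _)) .refl)
  | piR N _ ih => exact fun ρ U => red_pi .refl (red_pi .refl (ih _ _))

theorem cv_tr {A B : Tm S} (h : EqvGen Step A B) (ρ : ℕ → Tm S) (U : Tm S) :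
    EqvGen Step (tr ρ U A) (tr ρ U B) := by
  induction h with
  | rel a b h => exact red_cv (h.tr _ _)
  | refl a => exact .refl _
  | symm a b _ ih => exact .symm _ _ ih
  | trans a b c _ _ i1 i2 => exact .trans _ _ _ i1 i2

theorem Ty.arr {Δ} {X Y : Tm S} {a b c} (x : Ty P Δ X (sort a)) (y : Ty P Δ Y (sort b))
    (r : P.rule a b c) : Ty P Δ (arr X Y) (sort c) := .prod x (y.weak x) r

theorem Ty.ap {Δ} {f X Y x : Tm S} (a : Ty P Δ f (P340.arr X Y)) (b : Ty P Δ x X) :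
    Ty P Δ (.app f x) Y := by
  have := a.app b
  rwa [inst_sh] at this

def Env (P : PTS S) (u : S) (L : List S) (k : ℕ) (Δ : List (Tm S)) (U : Tm S) : Prop :=
  Ty P Δ U (sort u) ∧ (∃ d, k ≤ d ∧ Ty P Δ (var d) (arr U (sort u))) ∧
    ∀ s ∈ L, (∃ s₂ s₃, P.rule s s₂ s₃) → ∃ a b j, P.rule s u a ∧ P.rule a u b ∧ k ≤ j ∧
      Ty P Δ (var j) (arr (sort b) (arr U U))

theorem Env.weak {u L k Δ s} {U C : Tm S} (h : Env P u L k Δ U) (c : Ty P Δ C (sort s)) :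
    Env P u L (k + 1) (C :: Δ) (sh U) := by
  obtain ⟨a, ⟨d, b1, b2⟩, e⟩ := h
  refine ⟨a.weak c, ⟨d + 1, by omega, ?_⟩, fun s hs f => ?_⟩
  · have := b2.weak c
    rwa [sh_arr] at this
  · obtain ⟨a, b, j, r1, r2, r3, r4⟩ := e s hs f
    have := r4.weak c
    rw [sh_arr, sh_arr] at this
    exact ⟨a, b, j + 1, r1, r2, by omega, this⟩

theorem Env.mono {u L L' k Δ} {U : Tm S} (h : Env P u L k Δ U) (c : L' ⊆ L) :
    Env P u L' k Δ U := ⟨h.1, h.2.1, fun s hs => h.2.2 s (c hs)⟩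

theorem r_mem {k j : ℕ} (h : k ≤ j) (X t : Tm S) :
    R k (app (app (var j) X) t) X ∧ R k (app (app (var j) X) t) t := by
  constructor <;> intro σ n p w <;> obtain ⟨j', -, e⟩ := p j h <;> simp only [sub, e] at w
  · exact ((w.inv_app (.app _ (.var _))).1.inv_app (.var _)).2
  · exact (w.inv_app (.app _ (.var _))).2

theorem r_fam {k j : ℕ} (h : k ≤ j) (t : Tm S) : R k (app (var j) t) t := by
  intro σ n p w
  obtain ⟨j', -, e⟩ := p j h
  simp only [sub, e] at w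
  exact (w.inv_app (.var _)).2

theorem Env.mem {u L k Δ s s₂ s₃} {U x X Z t : Tm S} (h : Env P u L k Δ U) (hs : s ∈ L)
    (r : P.rule s s₂ s₃) (hx : Ty P Δ x X) (hX : Ty P Δ X (sort s)) (hZ : Ty P Δ Z (sort s))
    (ht : Ty P Δ t U) : ∃ t', Ty P Δ t' U ∧ R k t' t ∧ R k t' x ∧ R k t' Z := by
  obtain ⟨hU, ⟨d, b1, b2⟩, e⟩ := h
  obtain ⟨a, b, j, r1, r2, r3, r4⟩ := e s hs ⟨_, _, r⟩
  have c := hX.arr hU r1
  have c1 := Ty.var c
  have c2 := b2.weak c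
  rw [sh_arr] at c1 c2
  have c3 := Ty.prod c (c2.ap (c1.ap (hx.weak c))) r2
  refine ⟨_, (r4.ap c3).ap ((r4.ap ((hZ.arr hU r1).arr hU r2)).ap ht),
    (r_mem r3 _ _).2.trans (r_mem r3 _ _).2, (r_mem r3 _ _).1.trans ?_,
    ((r_mem r3 _ _).2.trans (r_mem r3 _ _).1).trans ?_⟩
  · intro σ n p w
    obtain ⟨j', -, e⟩ := p d b1
    simp only [sub, sub_sh, e] at w
    exact ((w.inv_pi.2.inv_app (.var _)).2.inv_app (.var _)).2.unsh
  · intro σ n p w
    simp only [sub_arr] at w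
    exact w.inv_pi.1.inv_pi.1

def Mq (P : PTS S) (Γ Δ : List (Tm S)) (U : Tm S) (ρ : ℕ → Tm S) (κ : ℕ → ℕ) : Prop :=
  ∀ i B, Has Γ i B → Ty P Δ (ρ i) (tr ρ U B) ∧ Ty P Δ (var (κ i)) (arr U (tr ρ U B))

theorem Mq.weak {Γ Δ ρ κ s} {U C : Tm S} (h : Mq P Γ Δ U ρ κ) (c : Ty P Δ C (sort s)) :
    Mq P Γ (C :: Δ) (sh U) (fun i => sh (ρ i)) (u1 κ) := by
  intro i B hB
  have := (h i B hB).2.weak c
  rw [sh_arr] at this
  rw [← sh_tr]
  exact ⟨(h i B hB).1.weak c, this⟩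

theorem Mq.tail {Γ Δ ρ κ} {U C : Tm S} (h : Mq P (C :: Γ) Δ U ρ κ) :
    Mq P Γ Δ U (fun i => ρ (i + 1)) fun i => κ (i + 1) := by
  intro i B hB
  have := h _ _ (hB.succ C)
  rwa [tr_sh] at this

theorem Mq.up {Γ Δ ρ κ s s'} {U A : Tm S} (h : Mq P Γ Δ U ρ κ) (a : Ty P Δ (tr ρ U A) (sort s))
    (b : Ty P Δ (arr U (tr ρ U A)) (sort s')) :
    Mq P (A :: Γ) (sh (arr U (tr ρ U A)) :: tr ρ U A :: Δ) (sh (sh U)) (up2 ρ) (u2 κ) := by
  intro i B hB
  have c := b.weak a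
  cases hB with
  | zero =>
    rw [tr_sh2, ← sh_arr, ← sh_arr]
    exact ⟨(Ty.var a).weak c, .var c⟩
  | succ _ hB =>
    rw [tr_sh2, ← sh_arr, ← sh_arr]
    exact ⟨((h _ _ hB).1.weak a).weak c, ((h _ _ hB).2.weak a).weak c⟩

def Good (P : PTS S) (u : S) (Γ : List (Tm S)) (M T : Tm S) : Prop :=
  ∃ L, ∀ k Δ U ρ κ, Env P u L k Δ U → Mq P Γ Δ U ρ κ → Ty P Δ (tr ρ U M) (tr ρ U T) ∧
    ∀ t, Ty P Δ t U → ∃ Q, Ty P Δ Q (tr ρ U T) ∧ D k κ t M Q

theorem Good.weak {u Γ} {M T : Tm S} (h : Good P u Γ M T) (C : Tm S) :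
    Good P u (C :: Γ) (sh M) (sh T) := by
  obtain ⟨L, h⟩ := h
  refine ⟨L, fun k Δ U ρ κ e m => ?_⟩
  obtain ⟨a, b⟩ := h k Δ U _ _ e m.tail
  rw [tr_sh, tr_sh]
  refine ⟨a, fun t ht => ?_⟩
  obtain ⟨Q, c, d⟩ := b t ht
  have := d.ren k κ Nat.succ (fun i => i) (fun _ => id) fun _ => rfl
  rw [ren_id, ren_id] at this
  exact ⟨Q, c, this⟩

end Vale.Agent.P340
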