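import Vale.Agent.P340.Sub

namespace Vale.Agent.P340

open Tm Relation

universe v
variable {S : Type v} {P : PTS S}

inductive Valid (P : PTS S) : List (Tm S) → Prop
  | nil : Valid P []
  | cons {Γ A s} : Valid P Γ → Ty P Γ A (sort s) → Valid P (A :: Γ)

inductive Has : List (Tm S) → ℕ → Tm S → Prop
  | zero (A : Tm S) (Γ : List (Tm S)) : Has (A :: Γ) 0 (sh A)
  | succ {Γ i B} (A : Tm S) : Has Γ i B → Has (A :: Γ) (i + 1) (sh B)

theorem Ty.valid {Γ} {M A : Tm S} (h : Ty P Γ M A) : Valid P Γ := by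
  induction h with
  | ax => exact .nil
  | var a ih => exact .cons ih a
  | weak _ a ih => exact .cons ih a
  | prod _ _ _ ih => exact ih
  | abs _ _ _ ih => exact ih
  | app _ _ ih => exact ih
  | conv _ _ _ ih => exact ih

theorem Valid.ax {Γ} (h : Valid P Γ) {s t : S} (a : P.ax s t) : Ty P Γ (sort s) (sort t) := by
  induction h with
  | nil => exact .ax a
  | cons _ b ih => exact ih.weak b

def Mp (P : PTS S) (Δ : List (Tm S)) (σ : ℕ → Tm S) (Γ : List (Tm S)) : Prop :=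
  ∀ i B, Has Γ i B → Ty P Δ (σ i) (sub σ B)

theorem Mp.ups {Δ Γ σ} {A : Tm S} {s} (h : Mp P Δ σ Γ) (a : Ty P Δ (sub σ A) (sort s)) :
    Mp P (sub σ A :: Δ) (ups σ) (A :: Γ) := by
  intro i B hB
  cases hB with
  | zero => rw [sub_sh]; exact .var a
  | succ _ hB => rw [sub_sh]; exact (h _ _ hB).weak a

theorem Mp.tail {Δ Γ σ} {A : Tm S} (h : Mp P Δ σ (A :: Γ)) : Mp P Δ (fun i => σ (i + 1)) Γ :=
  fun _ B hB => sub_sh' σ B ▸ h _ _ (hB.succ A)

def Sem (P : PTS S) (Γ : List (Tm S)) (M T : Tm S) : Prop :=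
  ∀ Δ σ, Valid P Δ → Mp P Δ σ Γ → Ty P Δ (sub σ M) (sub σ T)

theorem Ty.sem {Γ} {M T : Tm S} (h : Ty P Γ M T) :
    Sem P Γ M T ∧ ∀ A Γ', Γ = A :: Γ' → ∃ s, Sem P Γ' A (sort s) := by
  induction h with
  | ax a => exact ⟨fun _ _ v _ => v.ax a, fun _ _ e => nomatch e⟩
  | var a ih =>
    exact ⟨fun _ _ _ m => m _ _ (.zero _ _), fun _ _ e => by cases e; exact ⟨_, ih.1⟩⟩
  | weak _ _ i1 i2 =>
    refine ⟨fun _ _ v m => ?_, fun _ _ e => by cases e; exact ⟨_, i2.1⟩⟩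
    rw [sub_sh', sub_sh']
    exact i1.1 _ _ v m.tail
  | prod _ _ r i1 i2 =>
    refine ⟨fun _ _ v m => ?_, i1.2⟩
    have a := i1.1 _ _ v m
    exact .prod a (i2.1 _ _ (v.cons a) (m.ups a)) r
  | abs _ _ i1 i2 =>
    refine ⟨fun _ _ v m => ?_, i2.2⟩
    obtain ⟨s, a⟩ := i1.2 _ _ rfl
    have a := a _ _ v m
    exact .abs (i1.1 _ _ (v.cons a) (m.ups a)) (i2.1 _ _ v m)
  | app _ _ i1 i2 =>
    refine ⟨fun _ _ v m => ?_, i1.2⟩
    rw [sub_inst]
    exact .app (i1.1 _ _ v m) (i2.1 _ _ v m)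
  | conv _ _ c i1 i2 =>
    exact ⟨fun _ _ v m => .conv (i1.1 _ _ v m) (i2.1 _ _ v m) (cv_sub c _), i1.2⟩

theorem Valid.has {Γ} (h : Valid P Γ) : ∀ {i B}, Has Γ i B → Ty P Γ (var i) B := by
  induction h with
  | nil => intro _ _ h; cases h
  | cons _ a ih =>
    intro _ _ h
    cases h with
    | zero => exact .var a
    | succ _ h => exact (ih h).weak a

theorem Valid.mp {Γ} (h : Valid P Γ) : Mp P Γ var Γ := fun _ B hB => by
  rw [sub_var]; exact h.has hB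

theorem Ty.inst {Γ} {A M T N : Tm S} (h : Ty P (A :: Γ) M T) (n : Ty P Γ N A) :
    Ty P Γ (sub (inst N) M) (sub (inst N) T) := by
  refine h.sem.1 _ _ n.valid fun i B hB => ?_
  cases hB with
  | zero => rw [inst_sh]; exact n
  | succ _ hB => rw [inst_sh]; exact n.valid.has hB

theorem Ty.gen {Γ} {M T : Tm S} (h : Ty P Γ M T) : ∀ {A B}, M = pi A B →
    ∃ s₁ s₂ s₃, P.rule s₁ s₂ s₃ ∧ Ty P Γ A (sort s₁) ∧ Ty P (A :: Γ) B (sort s₂) := by
  induction h with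
  | ax => intro _ _ e; cases e
  | var => intro _ _ e; cases e
  | @weak Γ M _ C _ _ c ih =>
    intro _ _ e
    cases M with
    | pi A B =>
      cases e
      obtain ⟨_, _, _, r, a, b⟩ := ih rfl
      refine ⟨_, _, _, r, a.weak c, ?_⟩
      have a' := a.weak c
      have m : Mp P (C :: Γ) (fun i => .var (i + 1)) Γ := fun i B hB => by
        rw [← ren_eq Nat.succ]; exact (c.valid.has hB).weak c
      rw [sh, ren_eq] at a'
      have := b.sem.1 _ _ (a'.valid.cons a') (m.ups a')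
      rw [ren_eq, ren_eq]
      convert this using 2
      · funext i; cases i <;> rfl
      · rfl
    | _ => cases e
  | prod a b r => intro _ _ e; cases e; exact ⟨_, _, _, r, a, b⟩
  | abs => intro _ _ e; cases e
  | app => intro _ _ e; cases e
  | conv _ _ _ ih => exact ih

theorem Ty.typ {Γ} {M T : Tm S} (h : Ty P Γ M T) : ∃ s, T = sort s ∨ Ty P Γ T (sort s) := by
  induction h with
  | ax => exact ⟨_, .inl rfl⟩
  | var a => exact ⟨_, .inr (a.weak a)⟩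
  | weak _ c ih =>
    obtain ⟨s, rfl | a⟩ := ih
    · exact ⟨_, .inl rfl⟩
    · exact ⟨_, .inr (a.weak c)⟩
  | prod => exact ⟨_, .inl rfl⟩
  | abs _ a => exact ⟨_, .inr a⟩
  | app _ n ih =>
    obtain ⟨s, e | a⟩ := ih
    · cases e
    · obtain ⟨_, _, _, _, _, b⟩ := a.gen rfl
      exact ⟨_, .inr (b.inst n)⟩
  | conv _ a => exact ⟨_, .inr a⟩

theorem Ty.dom {Γ} {M A B : Tm S} (h : Ty P Γ M (pi A B)) :
    ∃ s₁ s₂ s₃, P.rule s₁ s₂ s₃ ∧ Ty P Γ A (sort s₁) ∧ Ty P (A :: Γ) B (sort s₂) := by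
  obtain ⟨s, e | a⟩ := h.typ
  · cases e
  · exact a.gen rfl

end Vale.Agent.P340
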